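import Mathlib

/-!
# Row 177: Tate cohomology of a free action of a finite cyclic group vanishes
-/

set_option autoImplicit false

namespace Crest.Agent.R177.TorsionFreeAux

open Finset

variable {X A : Type} [AddCommGroup A]

/-- the norm operator along `σ` -/
def nrm (r : ℕ) (σ : X → X) (f : X → A) (x : X) : A := ∑ i ∈ range r, f (σ^[i] x)

theorem idx_iter {r : ℕ} {σ : X → X} {idx : X → ZMod r} (h : ∀ x, idx (σ x) = idx x + 1)
    (i : ℕ) (x : X) : idx (σ^[i] x) = idx x + i := by
  induction i with
  | zero => simp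
  | succ i ih => rw [Function.iterate_succ_apply', h, ih]; push_cast; ring

omit [AddCommGroup A] in
theorem inv_iter {σ : X → X} {f : X → A} (hf : ∀ x, f (σ x) = f x) (i : ℕ) (x : X) :
    f (σ^[i] x) = f x := by
  induction i with
  | zero => simp
  | succ i ih => rw [Function.iterate_succ_apply', hf, ih]

/-- invariant functions are norms -/
theorem exists_nrm {r : ℕ} [NeZero r] {σ : X → X} {idx : X → ZMod r}
    (h : ∀ x, idx (σ x) = idx x + 1) (f : X → A) (hf : ∀ x, f (σ x) = f x) :
    ∃ f' : X → A, ∀ x, nrm r σ f' x = f x := by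
  classical
  refine ⟨fun x => if idx x = 0 then f x else 0, fun x => ?_⟩
  unfold nrm
  rw [Finset.sum_eq_single (-idx x).val]
  · simp [idx_iter h, inv_iter hf]
  · intro i hi hne
    simp only
    rw [if_neg]
    rw [idx_iter h]
    intro h0
    apply hne
    have : (i : ZMod r) = -idx x := by linear_combination h0
    rw [← this, ZMod.val_cast_of_lt (Finset.mem_range.mp hi)]
  · intro hn
    exact absurd (Finset.mem_range.mpr (ZMod.val_lt _)) hn

/-- functions of norm zero are differences -/
theorem exists_dif {r : ℕ} [NeZero r] {σ : X → X} {idx : X → ZMod r}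
    (h : ∀ x, idx (σ x) = idx x + 1) (f : X → A) (hf : ∀ x, nrm r σ f x = 0) :
    ∃ f' : X → A, ∀ x, f' (σ x) - f' x = f x := by
  refine ⟨fun x => -∑ j ∈ range (r - (idx x).val), f (σ^[j] x), fun x => ?_⟩
  have hlt : (idx x).val < r := ZMod.val_lt _
  have hv : (idx (σ x)).val = ((idx x).val + 1) % r := by
    rw [h, ZMod.val_add, ZMod.val_one_eq_one_mod, Nat.add_mod_mod]
  simp only
  by_cases hc : (idx x).val + 1 < r
  · rw [hv, Nat.mod_eq_of_lt hc]
    have e : r - (idx x).val = (r - ((idx x).val + 1)) + 1 := by omega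
    rw [e, Finset.sum_range_succ']
    simp only [Function.iterate_succ_apply, Function.iterate_zero_apply]
    abel
  · have e : (idx x).val + 1 = r := by omega
    have e' : r - (idx x).val = 1 := by omega
    rw [hv, e, Nat.mod_self, e', Nat.sub_zero]
    have := hf (σ x)
    unfold nrm at this
    rw [this]
    simp

theorem nrm_dif {r : ℕ} {σ : X → X} (hσ : ∀ x, σ^[r] x = x) (f : X → A) (x : X) :
    nrm r σ (fun y => f (σ y) - f y) x = 0 := by
  unfold nrm
  have := Finset.sum_range_sub (fun i => f (σ^[i] x)) r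
  simp only [Function.iterate_succ_apply'] at this
  rw [this, hσ]
  simp

theorem nrm_shift {r : ℕ} {σ : X → X} (hσ : ∀ x, σ^[r] x = x) (f : X → A) (x : X) :
    nrm r σ f (σ x) = nrm r σ f x := by
  have := nrm_dif hσ f x
  unfold nrm at this ⊢
  rw [Finset.sum_sub_distrib, sub_eq_zero] at this
  rw [← this]
  refine Finset.sum_congr rfl fun i _ => ?_
  rw [← Function.iterate_succ_apply, Function.iterate_succ_apply']

theorem iter_smul {G : Type} [Group G] [MulAction G X] (g : G) (i : ℕ) (x : X) :
    (fun y : X => g • y)^[i] x = g ^ i • x := by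
  induction i with
  | zero => simp
  | succ i ih => rw [Function.iterate_succ_apply', ih, pow_succ', mul_smul]

/-- a free action of a cyclic group has a coordinate along the orbits -/
theorem exists_idx {G : Type} [Group G] [MulAction G X]
    (free : ∀ (g : G) (x : X), g • x = x → g = 1) (g : G) :
    ∃ idx : X → ZMod (orderOf g), ∀ x, idx (g • x) = idx x + 1 := by
  classical
  let H := Subgroup.zpowers g
  let base : X → X := fun x => (Quotient.mk (MulAction.orbitRel H X) x).out
  have hb : ∀ x, ∃ n : ℤ, x = g ^ n • base x := by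
    intro x
    have h1 : (MulAction.orbitRel H X).r x (base x) :=
      Quotient.exact (Quotient.out_eq (Quotient.mk (MulAction.orbitRel H X) x)).symm
    obtain ⟨⟨k, n, rfl⟩, hk⟩ := MulAction.orbitRel_apply.mp h1
    exact ⟨n, hk.symm⟩
  have hbg : ∀ x, base (g • x) = base x := by
    intro x
    have : Quotient.mk (MulAction.orbitRel H X) (g • x) = Quotient.mk (MulAction.orbitRel H X) x :=
      Quotient.sound (MulAction.orbitRel_apply.mpr ⟨⟨g, Subgroup.mem_zpowers g⟩, rfl⟩)
    simp only [base, this]
  choose n hn using hb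
  refine ⟨fun x => (n x : ZMod (orderOf g)), fun x => ?_⟩
  have h1 := hn (g • x)
  rw [hbg] at h1
  have h2 : g ^ (n x + 1) • base x = g ^ n (g • x) • base x := by
    rw [← h1, add_comm, zpow_add, zpow_one, mul_smul, ← hn x]
  have h3 : g ^ (n x + 1 - n (g • x)) = 1 := by
    apply free _ (base x)
    rw [sub_eq_neg_add, zpow_add, mul_smul, h2, ← mul_smul, ← zpow_add]
    simp
  have h4 : (orderOf g : ℤ) ∣ n x + 1 - n (g • x) := orderOf_dvd_iff_zpow_eq_one.mpr h3
  have h5 := (ZMod.intCast_zmod_eq_zero_iff_dvd _ _).mpr h4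
  push_cast at h5
  simp only
  linear_combination -h5

end Crest.Agent.R177.TorsionFreeAux
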